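import Mathlib

/-!
# P184, row I: idempotents near almost idempotent elements
-/

namespace Vale.Agent.P184.H847

open Filter Topology

section Newton

variable {R : Type*} [NormedRing R]

/-- Newton step for idempotents. -/
def nw (x : R) : R := 3 * (x * x) - 2 * (x * x * x)

/-- iterates -/
def nwS (x : R) : ℕ → R
  | 0 => x
  | n + 1 => nw (nwS x n)

lemma nw_sub (x : R) : nw x - x = -((2 * x - 1) * (x * x - x)) := by
  unfold nw
  noncomm_ring

lemma nw_defect (x : R) :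
    nw x * nw x - nw x = (x * x - x) * (x * x - x) * (4 * (x * x - x) - 3) := by
  unfold nw
  noncomm_ring

variable [NormOneClass R]

lemma nle_two : ‖(2 : R)‖ ≤ 2 := by
  have : (2 : R) = 1 + 1 := by norm_num
  rw [this]
  refine (norm_add_le _ _).trans ?_
  rw [norm_one]; norm_num

lemma nle_three : ‖(3 : R)‖ ≤ 3 := by
  have : (3 : R) = 2 + 1 := by norm_num
  rw [this]
  refine (norm_add_le _ _).trans ?_
  rw [norm_one]
  linarith [nle_two (R := R)]

lemma nle_four : ‖(4 : R)‖ ≤ 4 := by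
  have : (4 : R) = 3 + 1 := by norm_num
  rw [this]
  refine (norm_add_le _ _).trans ?_
  rw [norm_one]
  linarith [nle_three (R := R)]

lemma nw_defect_le (x : R) (h : ‖x * x - x‖ ≤ 1 / 16) :
    ‖nw x * nw x - nw x‖ ≤ 1 / 4 * ‖x * x - x‖ := by
  rw [nw_defect]
  set y := x * x - x
  have h0 := norm_nonneg y
  calc ‖y * y * (4 * y - 3)‖ ≤ ‖y * y‖ * ‖4 * y - 3‖ := norm_mul_le _ _
    _ ≤ (‖y‖ * ‖y‖) * (4 * ‖y‖ + 3) := by
        refine mul_le_mul (norm_mul_le _ _) ?_ (norm_nonneg _) (by positivity)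
        refine (norm_sub_le _ _).trans ?_
        refine add_le_add ?_ nle_three
        refine (norm_mul_le _ _).trans ?_
        exact mul_le_mul_of_nonneg_right nle_four h0
    _ ≤ 1 / 4 * ‖y‖ := by nlinarith

lemma nw_step_le (x : R) : ‖nw x - x‖ ≤ (2 * ‖x‖ + 1) * ‖x * x - x‖ := by
  rw [nw_sub, norm_neg]
  refine (norm_mul_le _ _).trans ?_
  refine mul_le_mul_of_nonneg_right ?_ (norm_nonneg _)
  refine (norm_sub_le _ _).trans ?_
  rw [norm_one]
  have := norm_mul_le (2 : R) x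
  have h2 : ‖(2 : R)‖ * ‖x‖ ≤ 2 * ‖x‖ := mul_le_mul_of_nonneg_right nle_two (norm_nonneg _)
  linarith only [this, h2]

lemma nwS_defect (x : R) (h : ‖x * x - x‖ ≤ 1 / 16) (n : ℕ) :
    ‖nwS x n * nwS x n - nwS x n‖ ≤ (1 / 4) ^ n * ‖x * x - x‖ := by
  induction n with
  | zero => simp [nwS]
  | succ n ih =>
    have h1 : ‖nwS x n * nwS x n - nwS x n‖ ≤ 1 / 16 := by
      refine ih.trans ?_
      have : (1 / 4 : ℝ) ^ n ≤ 1 := pow_le_one₀ (by norm_num) (by norm_num)
      nlinarith [norm_nonneg (x * x - x)]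
    refine (nw_defect_le _ h1).trans ?_
    rw [pow_succ]
    linarith only [ih]

/-- uniform bound on the iterates -/
lemma nwS_bound (x : R) (h : ‖x * x - x‖ ≤ 1 / 16) (n : ℕ) :
    2 * ‖nwS x n‖ + 1 ≤ (2 * ‖x‖ + 1) * (2 - (1 / 4) ^ n) := by
  induction n with
  | zero => simp only [nwS, one_div, pow_zero]; norm_num
  | succ n ih =>
    have h1 := nw_step_le (nwS x n)
    have h2 := nwS_defect x h n
    have h3 : ‖nwS x (n + 1)‖ ≤ ‖nwS x n‖ + ‖nw (nwS x n) - nwS x n‖ := by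
      have : nwS x (n + 1) = nwS x n + (nw (nwS x n) - nwS x n) := by
        simp [nwS]
      rw [this]
      exact norm_add_le _ _
    have hq0 : (0 : ℝ) < (1 / 4) ^ n := by positivity
    have hq1 : (1 / 4 : ℝ) ^ n ≤ 1 := pow_le_one₀ (by norm_num) (by norm_num)
    have h4 : ‖nw (nwS x n) - nwS x n‖ ≤
        ((2 * ‖x‖ + 1) * (2 - (1 / 4) ^ n)) * ((1 / 4) ^ n * (1 / 16)) := by
      refine h1.trans (mul_le_mul ih ?_ (norm_nonneg _) ?_)
      · exact h2.trans (mul_le_mul_of_nonneg_left h hq0.le)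
      · have := norm_nonneg x
        have h5 : (0 : ℝ) ≤ 2 - (1 / 4) ^ n := by linarith
        positivity
    rw [pow_succ]
    set q := (1 / 4 : ℝ) ^ n with hq
    set c := 2 * ‖x‖ + 1 with hc
    have hc0 : 0 ≤ c := by have := norm_nonneg x; positivity
    have h6 : 2 * ‖nwS x (n + 1)‖ + 1 ≤ c * (2 - q) + 2 * (c * (2 - q) * (q * (1 / 16))) := by
      linarith
    refine h6.trans ?_
    have h7 : (2 - q) + 2 * ((2 - q) * (q * (1 / 16))) ≤ 2 - q * (1 / 4) := by nlinarith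
    have h8 := mul_le_mul_of_nonneg_left h7 hc0
    nlinarith

lemma nwS_step (x : R) (h : ‖x * x - x‖ ≤ 1 / 16) (n : ℕ) :
    ‖nwS x (n + 1) - nwS x n‖ ≤ 2 * (2 * ‖x‖ + 1) * ‖x * x - x‖ * (1 / 4) ^ n := by
  have h1 := nw_step_le (nwS x n)
  have h2 := nwS_defect x h n
  have h3 := nwS_bound x h n
  have hq0 : (0 : ℝ) < (1 / 4) ^ n := by positivity
  change ‖nw (nwS x n) - nwS x n‖ ≤ _
  refine h1.trans ?_
  calc (2 * ‖nwS x n‖ + 1) * ‖nwS x n * nwS x n - nwS x n‖
      ≤ ((2 * ‖x‖ + 1) * 2) * ((1 / 4) ^ n * ‖x * x - x‖) := by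
        refine mul_le_mul ?_ h2 (norm_nonneg _) (by positivity)
        have hx0 : 0 ≤ 2 * ‖x‖ + 1 := by positivity
        refine h3.trans (mul_le_mul_of_nonneg_left ?_ hx0)
        linarith
    _ = _ := by ring

/-- Near an almost idempotent element of a closed set which is stable under the Newton step
there is an idempotent. -/
theorem exists_idem_near [CompleteSpace R] {S : Set R} (hS : IsClosed S)
    (hst : ∀ a ∈ S, nw a ∈ S) (x : R) (hx : x ∈ S) (h : ‖x * x - x‖ ≤ 1 / 16) :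
    ∃ f ∈ S, f * f = f ∧ ‖f - x‖ ≤ 3 * (2 * ‖x‖ + 1) * ‖x * x - x‖ := by
  have hmem : ∀ n, nwS x n ∈ S := by
    intro n
    induction n with
    | zero => exact hx
    | succ n ih => exact hst _ ih
  set C := 2 * (2 * ‖x‖ + 1) * ‖x * x - x‖ with hC
  have hdist : ∀ n, dist (nwS x n) (nwS x (n + 1)) ≤ C * (1 / 4) ^ n := by
    intro n
    rw [dist_comm, dist_eq_norm]
    exact nwS_step x h n
  have hcau : CauchySeq (nwS x) :=
    cauchySeq_of_le_geometric (1 / 4) C (by norm_num) hdist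
  obtain ⟨f, hf⟩ := cauchySeq_tendsto_of_complete hcau
  refine ⟨f, hS.mem_of_tendsto hf (Eventually.of_forall hmem), ?_, ?_⟩
  · have h1 : Tendsto (fun n => nwS x n * nwS x n - nwS x n) atTop
        (𝓝 (f * f - f)) := (hf.mul hf).sub hf
    have h2 : Tendsto (fun n => nwS x n * nwS x n - nwS x n) atTop (𝓝 0) := by
      apply squeeze_zero_norm (nwS_defect x h)
      have : Tendsto (fun n : ℕ => (1 / 4 : ℝ) ^ n * ‖x * x - x‖) atTop
          (𝓝 (0 * ‖x * x - x‖)) :=
        (tendsto_pow_atTop_nhds_zero_of_lt_one (by norm_num) (by norm_num)).mul_const _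
      rwa [zero_mul] at this
    exact sub_eq_zero.mp (tendsto_nhds_unique h1 h2)
  · have h1 := dist_le_of_le_geometric_of_tendsto₀ (1 / 4) C (by norm_num) hdist hf
    rw [dist_comm, dist_eq_norm] at h1
    refine h1.trans ?_
    have : (0 : ℝ) ≤ (2 * ‖x‖ + 1) * ‖x * x - x‖ := by positivity
    rw [hC]
    have h34 : (1 - 1 / 4 : ℝ) = 3 / 4 := by norm_num
    rw [h34, div_le_iff₀ (by norm_num)]
    linarith only [this]

end Newton

end Vale.Agent.P184.H847
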