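import Vale.Agent.P184.H847.Fin
import Vale.Agent.P184.H847.Newt

/-!
# P184, row I: the trace of a nuclear difference of two idempotents is an integer
-/

namespace Vale.Agent.P184.H847

open Filter Topology
open Vale.Agent.P184.H13 (E co dl Nuc tr)

variable {Y : Type*}

/-- the row `y` of `K` as a rank one operator -/
noncomputable def rw1 (K : E Y →L[ℂ] E Y) (y : Y) : E Y →L[ℂ] E Y :=
  ((co y).comp K).smulRight (dl y)

theorem rw1_apply (K : E Y →L[ℂ] E Y) (y : Y) (v : E Y) : rw1 K y v = K v y • (dl y : E Y) := rfl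

theorem hasSum_rows {K : E Y →L[ℂ] E Y} (hK : Nuc K) : HasSum (rw1 K) K := by
  have h1 : Summable (rw1 K) := by
    refine Summable.of_norm_bounded hK (fun y => ?_)
    unfold rw1
    rw [ContinuousLinearMap.norm_smulRight_apply, norm_dl, mul_one]
  obtain ⟨L, hL⟩ := h1
  have h2 : L = K := by
    ext1 v
    have h3 : HasSum (fun y => rw1 K y v) (L v) := by
      have := (ContinuousLinearMap.apply ℂ (E Y) v).hasSum hL
      simpa using this
    exact h3.unique (hasSum_dl (K v))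
  rwa [h2] at hL

theorem close_idem {R : Type*} [NormedRing R] {p : R} (hp : p * p = p) :
    ∀ᶠ x in 𝓝 p, ‖x * x - x‖ ≤ 1 / 16 ∧
      3 * (2 * ‖x‖ + 1) * ‖x * x - x‖ + ‖x - p‖ < 1 := by
  have h1 : Tendsto (fun x : R => ‖x * x - x‖) (𝓝 p) (𝓝 0) := by
    have : Continuous fun x : R => ‖x * x - x‖ := by fun_prop
    have h := this.tendsto p
    rwa [hp, sub_self, norm_zero] at h
  have h2 : Tendsto (fun x : R => 3 * (2 * ‖x‖ + 1) * ‖x * x - x‖ + ‖x - p‖) (𝓝 p) (𝓝 0) := by
    have : Continuous fun x : R => 3 * (2 * ‖x‖ + 1) * ‖x * x - x‖ + ‖x - p‖ := by fun_prop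
    have h := this.tendsto p
    simp only [hp, sub_self, norm_zero, mul_zero, add_zero] at h
    exact h
  filter_upwards [h1.eventually (gt_mem_nhds (show (0 : ℝ) < 1 / 16 by norm_num)),
    h2.eventually (gt_mem_nhds (show (0 : ℝ) < 1 by norm_num))] with x hx hx'
  exact ⟨hx.le, hx'⟩

/-- operators which differ from `P` by an operator with range in `V` -/
def cls (P : E Y →L[ℂ] E Y) (V : Submodule ℂ (E Y)) : Set (E Y →L[ℂ] E Y) :=
  {z | ∀ v, z v - P v ∈ V}

theorem cls_closed (P : E Y →L[ℂ] E Y) (V : Submodule ℂ (E Y)) [FiniteDimensional ℂ V] :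
    IsClosed (cls P V) := by
  have h : cls P V = ⋂ v, {z : E Y →L[ℂ] E Y | z v - P v ∈ V} := by
    ext z
    simp [cls]
  rw [h]
  refine isClosed_iInter fun v => ?_
  have hc : Continuous fun z : E Y →L[ℂ] E Y => z v - P v :=
    ((ContinuousLinearMap.apply ℂ (E Y) v).continuous).sub continuous_const
  exact (Submodule.closed_of_finiteDimensional V).preimage hc

theorem cls_mul {P : E Y →L[ℂ] E Y} {V : Submodule ℂ (E Y)} (hP : P * P = P)
    (hPV : ∀ v ∈ V, P v ∈ V) {z w : E Y →L[ℂ] E Y} (hz : z ∈ cls P V) (hw : w ∈ cls P V) :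
    z * w ∈ cls P V := by
  intro v
  have h1 : (z * w) v - P v = (z (w v) - P (w v)) + P (w v - P v) := by
    have h2 : P (P v) = P v := by
      have := congrArg (fun L : E Y →L[ℂ] E Y => L v) hP
      exact this
    rw [map_sub, h2]
    change z (w v) - P v = _
    abel
  rw [h1]
  exact V.add_mem (hz _) (hPV _ (hw v))

theorem cls_nw {P : E Y →L[ℂ] E Y} {V : Submodule ℂ (E Y)} (hP : P * P = P)
    (hPV : ∀ v ∈ V, P v ∈ V) {z : E Y →L[ℂ] E Y} (hz : z ∈ cls P V) : nw z ∈ cls P V := by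
  have h2 := cls_mul hP hPV hz hz
  have h3 := cls_mul hP hPV h2 hz
  intro v
  have h1 : nw z v - P v = ((z * z) v - P v) + ((z * z) v - P v) + ((z * z) v - P v)
      - (((z * z * z) v - P v) + ((z * z * z) v - P v)) := by
    have : nw z = (z * z + z * z + z * z) - (z * z * z + z * z * z) := by
      unfold nw; noncomm_ring
    rw [this]
    simp only [sub_apply, add_apply]
    abel
  rw [h1]
  exact V.sub_mem (V.add_mem (V.add_mem (h2 v) (h2 v)) (h2 v)) (V.add_mem (h3 v) (h3 v))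

/-- the trace of a finite rank difference of two idempotents is an integer -/
theorem tr_fin_int {P f : E Y →L[ℂ] E Y} {V : Submodule ℂ (E Y)} [FiniteDimensional ℂ V]
    (hP : P * P = P) (hf : f * f = f) (hPV : ∀ v ∈ V, P v ∈ V) (hfV : f ∈ cls P V) :
    Nuc (f - P) ∧ ∃ n : ℤ, tr (f - P) = n := by
  have hT : ∀ v, (f - P) v ∈ V := fun v => hfV v
  have hfv : ∀ v ∈ V, f v ∈ V := by
    intro v hv
    have : f v = (f v - P v) + P v := by abel
    rw [this]
    exact V.add_mem (hfV v) (hPV v hv)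
  refine ⟨nuc_fin V (f - P) hT, ?_⟩
  rw [tr_fin V (f - P) hT]
  set fV := (f : E Y →ₗ[ℂ] E Y).restrict (p := V) (q := V) hfv with hfVd
  set PV := (P : E Y →ₗ[ℂ] E Y).restrict (p := V) (q := V) hPV with hPVd
  have h1 : ((f - P : E Y →L[ℂ] E Y) : E Y →ₗ[ℂ] E Y).restrict (p := V) (q := V)
      (fun v _ => hT v) = fV - PV := by
    ext v
    rfl
  have h2 : fV * fV = fV := by
    ext v
    have h := congrArg (fun L : E Y →L[ℂ] E Y => L (v : E Y)) hf
    exact congrFun (congrArg (fun w : E Y => (w : Y → ℂ)) h) _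
  have h3 : PV * PV = PV := by
    ext v
    have h := congrArg (fun L : E Y →L[ℂ] E Y => L (v : E Y)) hP
    exact congrFun (congrArg (fun w : E Y => (w : Y → ℂ)) h) _
  obtain ⟨a, ha⟩ := trace_idem V fV h2
  obtain ⟨b, hb⟩ := trace_idem V PV h3
  refine ⟨a - b, ?_⟩
  rw [h1, map_sub, ha, hb]
  push_cast
  ring

theorem integral (P P' : E Y →L[ℂ] E Y) (hP : P * P = P) (hP' : P' * P' = P')
    (hN : Nuc (P' - P)) : ∃ n : ℤ, tr (P' - P) = n := by
  rcases isEmpty_or_nonempty Y with hY | ⟨⟨y0⟩⟩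
  · refine ⟨0, ?_⟩
    unfold tr
    rw [tsum_empty]
    simp
  have : Nontrivial (E Y) := ⟨⟨dl y0, 0, fun h => by
    have := norm_dl y0
    rw [h, norm_zero] at this
    norm_num at this⟩⟩
  set K := P' - P with hK
  have hs : Tendsto (fun S : Finset Y => P + ∑ y ∈ S, rw1 K y) atTop (𝓝 P') := by
    have h := (hasSum_rows hN).const_add P
    have h2 : P + K = P' := by rw [hK]; abel
    rw [h2] at h
    exact h
  obtain ⟨S, h16, hlt⟩ := (hs.eventually (close_idem hP')).exists
  set x := P + ∑ y ∈ S, rw1 K y with hx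
  set V0 : Submodule ℂ (E Y) := Submodule.span ℂ ((dl : Y → E Y) '' (S : Set Y)) with hV0
  have : FiniteDimensional ℂ V0 := FiniteDimensional.span_of_finite ℂ (S.finite_toSet.image _)
  set V : Submodule ℂ (E Y) := V0 ⊔ V0.map (P : E Y →ₗ[ℂ] E Y) with hV
  have : FiniteDimensional ℂ V := by rw [hV]; infer_instance
  have hPV : ∀ v ∈ V, P v ∈ V := by
    intro v hv
    obtain ⟨a, ha, b, hb, rfl⟩ := Submodule.mem_sup.1 hv
    obtain ⟨c, hc, rfl⟩ := Submodule.mem_map.1 hb
    rw [map_add]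
    have h1 : P a ∈ V := Submodule.mem_sup_right (Submodule.mem_map_of_mem ha)
    have h2 : P ((P : E Y →ₗ[ℂ] E Y) c) = (P : E Y →ₗ[ℂ] E Y) c :=
      congrArg (fun L : E Y →L[ℂ] E Y => L c) hP
    rw [h2]
    exact V.add_mem h1 (Submodule.mem_sup_right (Submodule.mem_map_of_mem hc))
  have hxV : x ∈ cls P V := by
    intro v
    have h1 : x v - P v = ∑ y ∈ S, K v y • (dl y : E Y) := by
      rw [hx, add_apply, add_sub_cancel_left, sum_apply]
      rfl
    rw [h1]
    refine V.sum_mem fun y hy => V.smul_mem _ (Submodule.mem_sup_left ?_)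
    exact Submodule.subset_span ⟨y, hy, rfl⟩
  obtain ⟨f, hfV, hf, hfx⟩ := exists_idem_near (cls_closed P V)
    (fun a ha => cls_nw hP hPV ha) x hxV h16
  obtain ⟨hTN, n, hn⟩ := tr_fin_int hP hf hPV hfV
  have hN2 : Nuc (P' - f) := by
    have : P' - f = K - (f - P) := by rw [hK]; abel
    rw [this]
    exact nuc_sub hN hTN
  have h1 : ‖P' - f‖ < 1 := by
    have h2 : P' - f = -((f - x) + (x - P')) := by abel
    rw [h2, norm_neg]
    exact (norm_add_le _ _).trans_lt (by linarith)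
  have h0 := tr_sub_eq_zero hf hP' hN2 h1
  refine ⟨n, ?_⟩
  have h3 : K = (P' - f) + (f - P) := by rw [hK]; abel
  rw [h3, tr_add hN2 hTN, h0, hn, zero_add]

theorem rowIntegral.{u} : Vale.Agent.P184.H13.RowIntegral.{u} := by
  intro Y P P' hP hP' hN
  exact integral P P' hP hP' hN

end Vale.Agent.P184.H847
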