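import Vale.Agent.P184.H847.Nuc

/-!
# P184, row I: finite rank operators
-/

namespace Vale.Agent.P184.H847

open Filter Topology
open Vale.Agent.P184.H13 (E co dl Nuc tr)

variable {Y : Type*}

/-- the coordinates of `T` in the basis of `V` -/
noncomputable def crd (V : Submodule ℂ (E Y)) [FiniteDimensional ℂ V] (T : E Y →L[ℂ] E Y)
    (hT : ∀ v, T v ∈ V) (i : Fin (Module.finrank ℂ V)) : E Y →L[ℂ] ℂ :=
  (LinearMap.toContinuousLinearMap ((Module.finBasis ℂ V).coord i)).comp
    (T.codRestrict V hT)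

theorem crd_sum (V : Submodule ℂ (E Y)) [FiniteDimensional ℂ V] (T : E Y →L[ℂ] E Y)
    (hT : ∀ v, T v ∈ V) (v : E Y) :
    T v = ∑ i, crd V T hT i v • ((Module.finBasis ℂ V i : V) : E Y) := by
  have h := (Module.finBasis ℂ V).sum_repr (T.codRestrict V hT v)
  have h2 := congrArg (Subtype.val) h
  rw [AddSubmonoidClass.coe_finsetSum] at h2
  exact h2.symm

theorem crd_entry (V : Submodule ℂ (E Y)) [FiniteDimensional ℂ V] (T : E Y →L[ℂ] E Y)
    (hT : ∀ v, T v ∈ V) (v : E Y) (y : Y) :
    T v y = ∑ i, crd V T hT i v * ((Module.finBasis ℂ V i : V) : E Y) y := by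
  change co y (T v) = _
  rw [crd_sum V T hT v, map_sum]
  refine Finset.sum_congr rfl fun i _ => ?_
  rw [map_smul, smul_eq_mul]
  rfl

theorem nuc_fin (V : Submodule ℂ (E Y)) [FiniteDimensional ℂ V] (T : E Y →L[ℂ] E Y)
    (hT : ∀ v, T v ∈ V) : Nuc T := by
  have h1 : Summable fun y => ∑ i, ‖((Module.finBasis ℂ V i : V) : E Y) y‖ * ‖crd V T hT i‖ :=
    summable_sum fun i _ =>
      (hasSum_nrm ((Module.finBasis ℂ V i : V) : E Y)).summable.mul_right _
  refine Summable.of_nonneg_of_le (fun y => norm_nonneg _) (fun y => ?_) h1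
  refine ContinuousLinearMap.opNorm_le_bound _
    (Finset.sum_nonneg fun i _ => mul_nonneg (norm_nonneg _) (norm_nonneg _)) (fun v => ?_)
  have h2 : (co y).comp T v = ∑ i, crd V T hT i v * ((Module.finBasis ℂ V i : V) : E Y) y :=
    crd_entry V T hT v y
  rw [h2, Finset.sum_mul]
  refine (norm_sum_le _ _).trans (Finset.sum_le_sum fun i _ => ?_)
  rw [norm_mul, mul_assoc, mul_comm]
  exact mul_le_mul_of_nonneg_left ((crd V T hT i).le_opNorm v) (norm_nonneg _)

theorem tr_fin (V : Submodule ℂ (E Y)) [FiniteDimensional ℂ V] (T : E Y →L[ℂ] E Y)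
    (hT : ∀ v, T v ∈ V) : tr T = LinearMap.trace ℂ V
      ((T : E Y →ₗ[ℂ] E Y).restrict (p := V) (q := V) (fun v _ => hT v)) := by
  have h1 : ∀ i, HasSum
      (fun y => crd V T hT i (dl y) * ((Module.finBasis ℂ V i : V) : E Y) y)
      (crd V T hT i ((Module.finBasis ℂ V i : V) : E Y)) := by
    intro i
    have h := hasSum_clm (crd V T hT i) ((Module.finBasis ℂ V i : V) : E Y)
    simp only [smul_eq_mul] at h
    simpa only [mul_comm] using h
  have h2 : HasSum (fun y => T (dl y) y)
      (∑ i, crd V T hT i ((Module.finBasis ℂ V i : V) : E Y)) := by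
    have h := hasSum_sum (s := Finset.univ) (fun i _ => h1 i)
    convert h using 2 with y
    exact crd_entry V T hT (dl y) y
  have h3 : tr T = ∑ i, crd V T hT i ((Module.finBasis ℂ V i : V) : E Y) := h2.tsum_eq
  rw [h3, LinearMap.trace_eq_matrix_trace ℂ (Module.finBasis ℂ V), Matrix.trace]
  refine Finset.sum_congr rfl fun i _ => ?_
  rw [Matrix.diag_apply, LinearMap.toMatrix_apply]
  rfl

/-- trace of an idempotent endomorphism of a finite dimensional space -/
theorem trace_idem (W : Type*) [AddCommGroup W] [Module ℂ W] [FiniteDimensional ℂ W]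
    (f : W →ₗ[ℂ] W) (h : f * f = f) : ∃ n : ℤ, LinearMap.trace ℂ W f = n := by
  have hf : IsIdempotentElem f := h
  refine ⟨(Module.finrank ℂ (LinearMap.range f) : ℤ), ?_⟩
  rw [(LinearMap.IsIdempotentElem.isProj_range f hf).trace]
  simp

end Vale.Agent.P184.H847
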