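import Vale.Agent.P184.H13.Rows

/-!
# P184, row I: nuclear operators on `ℓ¹(Y)`, the trace, cyclicity
-/

namespace Vale.Agent.P184.H847

open Filter Topology
open Vale.Agent.P184.H13 (E co dl Nuc tr)

variable {Y : Type*}

theorem hasSum_nrm (v : E Y) : HasSum (fun y => ‖v y‖) ‖v‖ := by
  have h := lp.hasSum_norm (p := 1) (by norm_num) v
  simpa using h

theorem co_apply (y : Y) (v : E Y) : co y v = v y := rfl

theorem norm_coord_le (v : E Y) (y : Y) : ‖v y‖ ≤ ‖v‖ :=
  lp.norm_apply_le_norm one_ne_zero v y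

theorem norm_dl (y : Y) : ‖(dl y : E Y)‖ = 1 := by
  classical
  unfold dl
  rw [lp.norm_single (by norm_num)]
  exact norm_one

theorem hasSum_dl (v : E Y) : HasSum (fun y => v y • (dl y : E Y)) v := by
  classical
  have h := lp.hasSum_single (p := 1) (by norm_num) v
  convert h using 2 with y
  unfold dl
  rw [← lp.single_smul]
  congr 1
  simp

theorem hasSum_clm {F : Type*} [NormedAddCommGroup F] [NormedSpace ℂ F] (φ : E Y →L[ℂ] F)
    (v : E Y) : HasSum (fun y => v y • φ (dl y)) (φ v) := by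
  have h := φ.hasSum (hasSum_dl v)
  simpa using h

/-- the entry of an operator -/
theorem entry_le (K : E Y →L[ℂ] E Y) (y : Y) (v : E Y) :
    ‖K v y‖ ≤ ‖(co y).comp K‖ * ‖v‖ := (co y ∘L K).le_opNorm v

theorem entry_dl_le (K : E Y →L[ℂ] E Y) (y z : Y) :
    ‖K (dl z) y‖ ≤ ‖(co y).comp K‖ := by
  have h := entry_le K y (dl z)
  rwa [norm_dl, mul_one] at h

theorem summable_tr {K : E Y →L[ℂ] E Y} (h : Nuc K) : Summable fun y => K (dl y) y :=
  Summable.of_norm_bounded h (fun y => entry_dl_le K y y)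

theorem nuc_add {K L : E Y →L[ℂ] E Y} (hK : Nuc K) (hL : Nuc L) : Nuc (K + L) := by
  refine Summable.of_nonneg_of_le (fun y => norm_nonneg _) (fun y => ?_) (Summable.add hK hL)
  rw [ContinuousLinearMap.comp_add]
  exact norm_add_le _ _

theorem nuc_neg {K : E Y →L[ℂ] E Y} (hK : Nuc K) : Nuc (-K) := by
  refine Summable.of_nonneg_of_le (fun y => norm_nonneg _) (fun y => ?_) hK
  rw [ContinuousLinearMap.comp_neg, norm_neg]

theorem nuc_sub {K L : E Y →L[ℂ] E Y} (hK : Nuc K) (hL : Nuc L) : Nuc (K - L) := by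
  rw [sub_eq_add_neg]
  exact nuc_add hK (nuc_neg hL)

theorem nuc_mul {K : E Y →L[ℂ] E Y} (hK : Nuc K) (B : E Y →L[ℂ] E Y) : Nuc (K * B) := by
  refine Summable.of_nonneg_of_le (fun y => norm_nonneg _) (fun y => ?_)
    (Summable.mul_right ‖B‖ hK)
  have : (co y).comp (K * B) = ((co y).comp K).comp B := rfl
  rw [this]
  exact ContinuousLinearMap.opNorm_comp_le _ _

theorem tr_add {K L : E Y →L[ℂ] E Y} (hK : Nuc K) (hL : Nuc L) : tr (K + L) = tr K + tr L := by
  unfold tr
  rw [← (summable_tr hK).tsum_add (summable_tr hL)]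
  rfl

theorem tr_neg (K : E Y →L[ℂ] E Y) : tr (-K) = - tr K := by
  unfold tr
  rw [← tsum_neg]
  rfl

theorem tr_norm_le {K : E Y →L[ℂ] E Y} (hK : Nuc K) (B : E Y →L[ℂ] E Y) :
    ‖tr (K * B)‖ ≤ (∑' y, ‖(co y).comp K‖) * ‖B‖ := by
  unfold tr
  rw [← tsum_mul_right]
  refine tsum_of_norm_bounded (Summable.hasSum (Summable.mul_right ‖B‖ hK)) (fun y => ?_)
  refine (entry_le K y (B (dl y))).trans ?_
  refine mul_le_mul_of_nonneg_left ?_ (norm_nonneg _)
  have h := B.le_opNorm (dl y)
  rwa [norm_dl, mul_one] at h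

/-- Fubini for the double series of the trace of a product -/
theorem double_sum (k b : Y → Y → ℂ) (a : Y → ℝ) (β : ℝ) (ha0 : ∀ z, 0 ≤ a z)
    (hk : ∀ z y, ‖k z y‖ ≤ a z) (ha : Summable a) (hb : ∀ z, Summable fun y => ‖b z y‖)
    (hb' : ∀ z, ∑' y, ‖b z y‖ ≤ β) :
    ∑' y, ∑' z, k z y * b z y = ∑' z, ∑' y, k z y * b z y := by
  have h0 : ∀ z, Summable fun y => a z * ‖b z y‖ := fun z => Summable.mul_left (a z) (hb z)
  have h00 : Summable fun z => ∑' y, a z * ‖b z y‖ := by
    refine Summable.of_nonneg_of_le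
      (fun z => tsum_nonneg fun y => mul_nonneg (ha0 z) (norm_nonneg (b z y))) (fun z => ?_)
      (Summable.mul_right β ha)
    rw [tsum_mul_left]
    exact mul_le_mul_of_nonneg_left (hb' z) (ha0 z)
  have h1 : Summable fun p : Y × Y => a p.1 * ‖b p.1 p.2‖ :=
    (summable_prod_of_nonneg
      (fun p => mul_nonneg (ha0 p.1) (norm_nonneg (b p.1 p.2)))).2 ⟨h0, h00⟩
  have hsum : Summable fun p : Y × Y => k p.1 p.2 * b p.1 p.2 := by
    refine Summable.of_norm_bounded h1 (fun p => ?_)
    rw [norm_mul]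
    exact mul_le_mul_of_nonneg_right (hk p.1 p.2) (norm_nonneg _)
  exact (Summable.tsum_comm (f := fun z y => k z y * b z y) hsum)

/-- cyclicity of the trace -/
theorem tr_comm {K : E Y →L[ℂ] E Y} (hK : Nuc K) (B : E Y →L[ℂ] E Y) :
    tr (B * K) = tr (K * B) := by
  have e1 : tr (K * B) = ∑' z, ∑' y, K (dl y) z * B (dl z) y := by
    refine tsum_congr (fun z => ?_)
    have h := (hasSum_clm ((co z).comp K) (B (dl z))).tsum_eq
    refine h.symm.trans (tsum_congr (fun y => ?_))
    exact mul_comm _ _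
  have e2 : tr (B * K) = ∑' y, ∑' z, K (dl y) z * B (dl z) y := by
    refine tsum_congr (fun y => ?_)
    have h := (hasSum_clm ((co y).comp B) (K (dl y))).tsum_eq
    exact h.symm
  rw [e1, e2]
  refine double_sum (fun z y => K (dl y) z) (fun z y => B (dl z) y)
    (fun z => ‖(co z).comp K‖) ‖B‖ (fun z => norm_nonneg _) (fun z y => entry_dl_le K z y) hK
    (fun z => (hasSum_nrm _).summable) (fun z => ?_)
  rw [(hasSum_nrm (B (dl z))).tsum_eq]
  have h := B.le_opNorm (dl z)
  rwa [norm_dl, mul_one] at h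

/-- if `C` is nuclear and anticommutes with `B`, then `tr (C B B) = 0` -/
theorem tr_anti {C B : E Y →L[ℂ] E Y} (hC : Nuc C) (h : B * C = - (C * B)) :
    tr (C * B * B) = 0 := by
  have h1 := tr_comm (nuc_mul hC B) B
  have h2 : B * (C * B) = - (C * B * B) := by
    rw [← mul_assoc, h, neg_mul]
  rw [h2, tr_neg] at h1
  have h3 : (2 : ℂ) * tr (C * B * B) = 0 := by linear_combination -h1
  rcases mul_eq_zero.1 h3 with h4 | h4
  · norm_num at h4
  · exact h4

/-- two idempotents at distance `< 1` with nuclear difference have difference of trace `0` -/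
theorem tr_sub_eq_zero {P P' : E Y →L[ℂ] E Y} (hP : P * P = P) (hP' : P' * P' = P')
    (hN : Nuc (P' - P)) (h1 : ‖P' - P‖ < 1) : tr (P' - P) = 0 := by
  set A := P' - P with hA
  set B := 1 - P - P' with hB
  have hAB : A * A + B * B = 1 := by
    have : A * A + B * B = 1 - 2 * P - 2 * P' + 2 * (P * P) + 2 * (P' * P') := by
      rw [hA, hB]; noncomm_ring
    rw [this, hP, hP']
    noncomm_ring
  have hanti : B * A = - (A * B) := by
    have : B * A + A * B = (P' - P) - (P' - P) + (P' - P' * P') + (P' - P' * P') +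
        (P * P - P) + (P * P - P) := by
      rw [hA, hB]; noncomm_ring
    rw [hP, hP'] at this
    have h2 : B * A + A * B = 0 := by rw [this]; noncomm_ring
    exact eq_neg_of_add_eq_zero_left h2
  have hodd : ∀ n : ℕ, B * (A * (A * A) ^ n) = - (A * (A * A) ^ n * B) := by
    intro n
    have hc : Commute B (A * A) := by
      change B * (A * A) = A * A * B
      rw [← mul_assoc, hanti, neg_mul, mul_assoc, hanti, mul_neg, neg_neg, mul_assoc]
    have hc' := hc.pow_right n
    rw [← mul_assoc, hanti, neg_mul, mul_assoc, hc'.eq, mul_assoc]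
  have hpow : ∀ n : ℕ, tr (A * (A * A) ^ n) = tr A := by
    intro n
    induction n with
    | zero => simp
    | succ n ih =>
      rw [← ih]
      set C := A * (A * A) ^ n with hC
      have hCN : Nuc C := nuc_mul hN _
      have h3 : A * (A * A) ^ (n + 1) = C * (A * A) := by
        rw [pow_succ, hC, mul_assoc]
      have h4 : C = C * (A * A) + C * B * B := by
        rw [mul_assoc C B B, ← mul_add, hAB, mul_one]
      rw [h3]
      conv_rhs => rw [h4]
      rw [tr_add (nuc_mul hCN _) (nuc_mul (nuc_mul hCN B) B), tr_anti hCN (hodd n),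
        add_zero]
  have hbd : ∀ n : ℕ, ‖tr A‖ ≤ (∑' y, ‖(co y).comp A‖) * (‖A‖ * ‖A‖) ^ n := by
    intro n
    rw [← hpow n]
    refine (tr_norm_le hN _).trans ?_
    refine mul_le_mul_of_nonneg_left ?_ (tsum_nonneg fun y => norm_nonneg _)
    rcases Nat.eq_zero_or_pos n with hn | hn
    · subst hn
      rw [pow_zero, pow_zero]
      exact ContinuousLinearMap.norm_id_le
    · refine (norm_pow_le' _ hn).trans ?_
      exact pow_le_pow_left₀ (norm_nonneg _) (norm_mul_le _ _) n
  have hq : ‖A‖ * ‖A‖ < 1 := by nlinarith [norm_nonneg A]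
  have ht : Tendsto (fun n : ℕ => (∑' y, ‖(co y).comp A‖) * (‖A‖ * ‖A‖) ^ n) atTop
      (𝓝 ((∑' y, ‖(co y).comp A‖) * 0)) :=
    (tendsto_pow_atTop_nhds_zero_of_lt_one (by positivity) hq).const_mul _
  rw [mul_zero] at ht
  have := ge_of_tendsto' ht hbd
  exact norm_le_zero_iff.1 this

end Vale.Agent.P184.H847
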